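import Vale.Agent.P171.Final

/-!
# P171: the phase transition, with the shape of the potential and with every choice of the pressure

Same theorem as `PhaseTransition`, written with Mathlib notions only and made more explicit:
the potential is a bounded step function (finite repulsive core minus a summable superposition of
attractive wells), and the non-differentiability holds for every function that is the
infinite-volume limit on `z > 0`.
-/

namespace Vale.Agent.Results.P171.ExplicitShape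

open MeasureTheory Set Filter Topology
open Vale.Agent.P171

theorem result : ∃ (a R : ℕ → ℝ) (φ : ℝ → ℝ),
    (∀ k, 0 ≤ a k) ∧ Summable a ∧ (∀ k, 1000 ≤ R k) ∧
    (∀ r : ℝ, φ r = (if r < 2 then 100000 else 0) - ∑' k, a k * (if r ≤ R k then 1 else 0)) ∧
    Measurable φ ∧ (∀ r : ℝ, |φ r| ≤ 124000) ∧
    (∃ B : ℝ, ∀ (N : ℕ) (x : Fin N → EuclideanSpace ℝ (Fin 3)), Function.Injective x →
      -(B * N) ≤ ∑ i : Fin N, ∑ j : Fin N, if i < j then φ (dist (x i) (x j)) else 0) ∧
    (∃ C ε R₀ : ℝ, 0 < C ∧ 0 < ε ∧ 0 < R₀ ∧ ∀ r : ℝ, R₀ ≤ r → φ r ≤ C * r ^ (-(3 : ℝ) - ε)) ∧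
    (∀ L : ℝ, 0 < L → ∀ N : ℕ,
      IntegrableOn (fun x : Fin N → EuclideanSpace ℝ (Fin 3) =>
          Real.exp (-(∑ i : Fin N, ∑ j : Fin N, if i < j then φ (dist (x i) (x j)) else 0)))
        {x | ∀ i k, x i k ∈ Icc (0 : ℝ) L}) ∧
    (∀ L z : ℝ, 0 < L → 0 < z →
      Summable fun N : ℕ => z ^ N * ((1 / (N.factorial : ℝ)) *
        ∫ x in {x : Fin N → EuclideanSpace ℝ (Fin 3) | ∀ i k, x i k ∈ Icc (0 : ℝ) L},
          Real.exp (-(∑ i : Fin N, ∑ j : Fin N, if i < j then φ (dist (x i) (x j)) else 0)))) ∧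
    (∀ z : ℝ, 0 < z → ∃ p : ℝ, Tendsto (fun L : ℝ =>
        Real.log (∑' N : ℕ, z ^ N * ((1 / (N.factorial : ℝ)) *
          ∫ x in {x : Fin N → EuclideanSpace ℝ (Fin 3) | ∀ i k, x i k ∈ Icc (0 : ℝ) L},
            Real.exp (-(∑ i : Fin N, ∑ j : Fin N, if i < j then φ (dist (x i) (x j)) else 0))))
          / L ^ 3) atTop (𝓝 p)) ∧
    ∃ z₀ : ℝ, 0 < z₀ ∧ ∀ Pi : ℝ → ℝ,
      (∀ z : ℝ, 0 < z → Tendsto (fun L : ℝ =>
        Real.log (∑' N : ℕ, z ^ N * ((1 / (N.factorial : ℝ)) *
          ∫ x in {x : Fin N → EuclideanSpace ℝ (Fin 3) | ∀ i k, x i k ∈ Icc (0 : ℝ) L},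
            Real.exp (-(∑ i : Fin N, ∑ j : Fin N, if i < j then φ (dist (x i) (x j)) else 0))))
          / L ^ 3) atTop (𝓝 (Pi z))) →
      ¬ DifferentiableAt ℝ Pi z₀ := by
  obtain ⟨c, μ, hc, hnd⟩ := exists_not_differentiable
  have hg := good_phiC hc
  have hden : ∀ k, 1 ≤ omega * Rk k ^ 3 := one_le_omega_mul_Rk
  have hP : IsPressure (phiC c) 1 (fun z => press (phiC c) (Real.log z)) := isPressure_of_good hg
  have hP' : ∀ z : ℝ, 0 < z → Tendsto (fun L : ℝ =>
        Real.log (∑' N : ℕ, z ^ N * ((1 / (N.factorial : ℝ)) *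
          ∫ x in {x : Fin N → EuclideanSpace ℝ (Fin 3) | ∀ i k, x i k ∈ Icc (0 : ℝ) L},
            Real.exp (-(∑ i : Fin N, ∑ j : Fin N,
              if i < j then phiC c (dist (x i) (x j)) else 0))))
          / L ^ 3) atTop (𝓝 (press (phiC c) (Real.log z))) := by
    intro z hz
    have h := hP z hz
    simp only [Vale.Agent.P171.grand, Vale.Agent.P171.Zcan, one_mul] at h
    exact h
  refine ⟨fun k => c k / (omega * Rk k ^ 3), Rk, phiC c, ?_, ?_, Rk_ge, ?_, hg.meas, ?_,
    stable_of_good hg, tempered_of_good hg, ?_, ?_, ?_, Real.exp μ, Real.exp_pos μ, ?_⟩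
  · intro k
    exact div_nonneg (hc.nonneg k) (by linarith [hden k])
  · refine Summable.of_nonneg_of_le (fun k => div_nonneg (hc.nonneg k) (by linarith [hden k]))
      (fun k => ?_) hc.summable
    exact div_le_self (hc.nonneg k) (hden k)
  · intro r
    unfold phiC vpot Acore
    congr 1
    refine tsum_congr fun k => ?_
    unfold Kk
    split_ifs
    · rw [mul_one, mul_one_div]
    · rw [mul_zero, mul_zero]
  · intro r
    have h := abs_phiC_le hc r
    unfold Acore cmax at h
    linarith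
  · intro L _ N
    have h := integrableOn_boltzmann hg L N
    simp only [one_mul] at h
    exact h
  · intro L z _ hz
    have h := summable_grand hg L hz
    simp only [Vale.Agent.P171.Zcan, one_mul] at h
    exact h
  · intro z hz
    exact ⟨_, hP' z hz⟩
  · intro Pi hPi hd
    have heq : Pi =ᶠ[𝓝 (Real.exp μ)] fun z => press (phiC c) (Real.log z) := by
      filter_upwards [Ioi_mem_nhds (Real.exp_pos μ)] with z hz
      exact tendsto_nhds_unique (hPi z hz) (hP' z hz)
    exact not_differentiableAt_exp hnd (heq.differentiableAt_iff.mp hd)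

end Vale.Agent.Results.P171.ExplicitShape
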