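import Vale.Agent.P171.Final

/-!
# P171: existence of a phase transition for a continuum radial pair potential
-/

namespace Vale.Agent.Results.P171.PhaseTransition

open MeasureTheory Set Filter Topology
open Vale.Agent.P171

/-- There is a Borel, locally bounded, stable and tempered radial pair potential `φ` on `ℝ^3` such
that at `β = 1` all canonical partition functions are integrals of integrable functions, all grand
canonical series converge, the limit `Π(1,z) = lim_{L→∞} L^{-3} log ∑_N z^N Z_{L,N}(1)` exists for
every `z > 0`, and `z ↦ Π(1,z)` is not differentiable at some `z > 0`. -/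
theorem result : ∃ φ : ℝ → ℝ, Measurable φ ∧ LocallyBoundedOnPos φ ∧ Stable φ ∧ Tempered φ ∧
    (∀ L z : ℝ, 0 < L → 0 < z →
      (∀ N : ℕ, IntegrableOn (fun x : Fin N → E3 => Real.exp (-(1 * energy φ x))) (boxN L N)) ∧
      Summable fun N : ℕ => z ^ N * Zcan φ 1 L N) ∧
    ∃ Pi : ℝ → ℝ, IsPressure φ 1 Pi ∧ ∃ z : ℝ, 0 < z ∧ ¬ DifferentiableAt ℝ Pi z :=
  final

end Vale.Agent.Results.P171.PhaseTransition
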