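import Vale.Agent.P171.Final

/-!
# P171: the phase transition statement written out in plain Mathlib terms
-/

namespace Vale.Agent.Results.P171.PlainStatement

open MeasureTheory Set Filter Topology

theorem result : ∃ φ : ℝ → ℝ, Measurable φ ∧
    (∀ a b : ℝ, 0 < a → a ≤ b → ∃ M : ℝ, ∀ r ∈ Icc a b, |φ r| ≤ M) ∧
    (∃ B : ℝ, ∀ (N : ℕ) (x : Fin N → EuclideanSpace ℝ (Fin 3)), Function.Injective x →
      -(B * N) ≤ ∑ i : Fin N, ∑ j : Fin N, if i < j then φ (dist (x i) (x j)) else 0) ∧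
    (∃ C ε R₀ : ℝ, 0 < C ∧ 0 < ε ∧ 0 < R₀ ∧ ∀ r : ℝ, R₀ ≤ r → φ r ≤ C * r ^ (-(3 : ℝ) - ε)) ∧
    (∀ L : ℝ, 0 < L → ∀ N : ℕ,
      IntegrableOn (fun x : Fin N → EuclideanSpace ℝ (Fin 3) =>
          Real.exp (-(∑ i : Fin N, ∑ j : Fin N, if i < j then φ (dist (x i) (x j)) else 0)))
        {x | ∀ i k, x i k ∈ Icc (0 : ℝ) L}) ∧
    (∀ L z : ℝ, 0 < L → 0 < z →
      Summable fun N : ℕ => z ^ N * ((1 / (N.factorial : ℝ)) *
        ∫ x in {x : Fin N → EuclideanSpace ℝ (Fin 3) | ∀ i k, x i k ∈ Icc (0 : ℝ) L},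
          Real.exp (-(∑ i : Fin N, ∑ j : Fin N, if i < j then φ (dist (x i) (x j)) else 0)))) ∧
    ∃ Pi : ℝ → ℝ,
      (∀ z : ℝ, 0 < z → Tendsto (fun L : ℝ =>
        Real.log (∑' N : ℕ, z ^ N * ((1 / (N.factorial : ℝ)) *
          ∫ x in {x : Fin N → EuclideanSpace ℝ (Fin 3) | ∀ i k, x i k ∈ Icc (0 : ℝ) L},
            Real.exp (-(∑ i : Fin N, ∑ j : Fin N, if i < j then φ (dist (x i) (x j)) else 0))))
          / L ^ 3) atTop (𝓝 (Pi z))) ∧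
      ∃ z : ℝ, 0 < z ∧ ¬ DifferentiableAt ℝ Pi z := by
  obtain ⟨φ, h1, h2, h3, h4, h5, Pi, h6, h7⟩ := Vale.Agent.P171.final
  refine ⟨φ, h1, h2, h3, h4, ?_, ?_, Pi, ?_, h7⟩
  · intro L hL N
    have h := (h5 L 1 hL one_pos).1 N
    simp only [one_mul] at h
    exact h
  · intro L z hL hz
    have h := (h5 L z hL hz).2
    simp only [Vale.Agent.P171.Zcan, one_mul] at h
    exact h
  · intro z hz
    have h := h6 z hz
    simp only [Vale.Agent.P171.grand, Vale.Agent.P171.Zcan, one_mul] at h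
    exact h

end Vale.Agent.Results.P171.PlainStatement
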